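import Mathlib

/-!
P100: Henon-Lane-Emden system on `ℝⁿ \ {0}`. Nonexistence of positive entire solutions when
`n = 2`, or when one of the weights has exponent at most `-2`.
-/

open Real Filter Topology

noncomputable section
namespace Vale.Agent.Lib.P100
variable {n : ℕ}

/-- Squared Euclidean norm on `ℝⁿ`. -/
def rho (x : Fin n → ℝ) : ℝ := ∑ i, x i ^ 2

/-- Euclidean norm on `ℝⁿ`. -/
def nrm (x : Fin n → ℝ) : ℝ := Real.sqrt (rho x)

/-- The Laplacian: the sum of the pure second partial derivatives. -/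
def lap (u : (Fin n → ℝ) → ℝ) (x : Fin n → ℝ) : ℝ :=
  ∑ i, iteratedDeriv 2 (fun t => u (Function.update x i t)) (x i)

/-- Positive entire solution of `-Δu = |x|^A v^p`, `-Δv = |x|^B u^q` in `ℝⁿ \ {0}`:
`u, v` are continuous and positive on `ℝⁿ` and `C²` on `ℝⁿ \ {0}`. -/
structure IsSol (A B p q : ℝ) (u v : (Fin n → ℝ) → ℝ) : Prop where
  contU : Continuous u
  contV : Continuous v
  smU : ContDiffOn ℝ 2 u {x | x ≠ 0}
  smV : ContDiffOn ℝ 2 v {x | x ≠ 0}
  posU : ∀ x, 0 < u x
  posV : ∀ x, 0 < v x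
  eqU : ∀ x, x ≠ 0 → - lap u x = nrm x ^ A * v x ^ p
  eqV : ∀ x, x ≠ 0 → - lap v x = nrm x ^ B * u x ^ q

theorem rho_nonneg (x : Fin n → ℝ) : 0 ≤ rho x := Finset.sum_nonneg fun i _ => sq_nonneg _

theorem coord_sq_le (x : Fin n → ℝ) (i : Fin n) : x i ^ 2 ≤ rho x :=
  Finset.single_le_sum (f := fun i => x i ^ 2) (fun i _ => sq_nonneg _) (Finset.mem_univ i)

theorem rho_pos_of_ne {x : Fin n → ℝ} (hx : x ≠ 0) : 0 < rho x := by
  obtain ⟨i, hi⟩ := Function.ne_iff.1 hx
  have h1 : 0 < x i ^ 2 := by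
    have : x i ≠ 0 := by simpa using hi
    positivity
  exact lt_of_lt_of_le h1 (coord_sq_le x i)

theorem ne_of_rho_pos {x : Fin n → ℝ} (hx : 0 < rho x) : x ≠ 0 := by
  rintro rfl
  simp [rho] at hx

theorem continuous_rho : Continuous (rho : (Fin n → ℝ) → ℝ) := by
  unfold rho
  fun_prop

theorem rho_update (x : Fin n → ℝ) (i : Fin n) (t : ℝ) :
    rho (Function.update x i t) = rho x - x i ^ 2 + t ^ 2 := by
  classical
  unfold rho
  rw [← Finset.add_sum_erase Finset.univ _ (Finset.mem_univ i),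
    ← Finset.add_sum_erase Finset.univ (fun j => x j ^ 2) (Finset.mem_univ i)]
  have e : ∑ j ∈ Finset.univ.erase i, Function.update x i t j ^ 2 =
      ∑ j ∈ Finset.univ.erase i, x j ^ 2 :=
    Finset.sum_congr rfl fun j hj => by rw [Function.update_of_ne (Finset.ne_of_mem_erase hj)]
  rw [e]
  simp only [Function.update_self]
  ring

theorem line_rad {F F' F'' : ℝ → ℝ} (hF : ∀ r, 0 < r → HasDerivAt F (F' r) r)
    (hF' : ∀ r, 0 < r → HasDerivAt F' (F'' r) r) (x : Fin n → ℝ) (i : Fin n) (hx : 0 < rho x) :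
    iteratedDeriv 2 (fun t => F (rho (Function.update x i t))) (x i) =
      F'' (rho x) * (2 * x i) ^ 2 + F' (rho x) * 2 := by
  set c := rho x - x i ^ 2 with hc
  have e : (fun t => F (rho (Function.update x i t))) = fun t => F (c + t ^ 2) := by
    funext t
    rw [rho_update]
  rw [e]
  have hφ : ∀ t : ℝ, HasDerivAt (fun t => c + t ^ 2) (2 * t) t := fun t => by
    have := ((hasDerivAt_id t).pow 2).const_add c
    simpa using this
  have h0 : c + x i ^ 2 = rho x := by rw [hc]; ring
  have hpos0 : 0 < c + x i ^ 2 := by rw [h0]; exact hx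
  have hpos : ∀ᶠ t in 𝓝 (x i), 0 < c + t ^ 2 := by
    have hc' : Continuous (fun t : ℝ => c + t ^ 2) := by fun_prop
    exact hc'.continuousAt.eventually (lt_mem_nhds hpos0)
  have hd : deriv (fun t => F (c + t ^ 2)) =ᶠ[𝓝 (x i)] fun t => F' (c + t ^ 2) * (2 * t) := by
    filter_upwards [hpos] with t ht
    exact ((hF _ ht).comp t (hφ t)).deriv
  have h2 : iteratedDeriv 2 (fun t => F (c + t ^ 2)) (x i) =
      deriv (deriv (fun t => F (c + t ^ 2))) (x i) := by
    rw [iteratedDeriv_succ, iteratedDeriv_one]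
  rw [h2, hd.deriv_eq]
  have h2t : HasDerivAt (fun t : ℝ => 2 * t) 2 (x i) := by
    simpa using (hasDerivAt_id (x i)).const_mul 2
  have hh := ((hF' _ hpos0).comp (x i) (hφ (x i))).mul h2t
  have hh' : HasDerivAt (fun t => F' (c + t ^ 2) * (2 * t))
      (F'' (c + x i ^ 2) * (2 * x i) * (2 * x i) + F' (c + x i ^ 2) * 2) (x i) := hh
  rw [hh'.deriv, h0]
  ring

theorem line_cd {F : ℝ → ℝ} (hFc : ∀ r, 0 < r → ContDiffAt ℝ 2 F r) (x : Fin n → ℝ) (i : Fin n)
    (hx : 0 < rho x) : ContDiffAt ℝ 2 (fun t => F (rho (Function.update x i t))) (x i) := by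
  set c := rho x - x i ^ 2 with hc
  have e : (fun t => F (rho (Function.update x i t))) = fun t => F (c + t ^ 2) := by
    funext t
    rw [rho_update]
  rw [e]
  have h0 : c + x i ^ 2 = rho x := by rw [hc]; ring
  have hpos0 : 0 < c + x i ^ 2 := by rw [h0]; exact hx
  have h1 : ContDiffAt ℝ 2 (fun t : ℝ => c + t ^ 2) (x i) := by fun_prop
  exact (hFc _ hpos0).comp (x i) h1

theorem lap_add_rad {u : (Fin n → ℝ) → ℝ} {F F' F'' : ℝ → ℝ}
    (hFc : ∀ r, 0 < r → ContDiffAt ℝ 2 F r) (hF : ∀ r, 0 < r → HasDerivAt F (F' r) r)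
    (hF' : ∀ r, 0 < r → HasDerivAt F' (F'' r) r) (x : Fin n → ℝ) (hx : 0 < rho x)
    (hu : ∀ i, ContDiffAt ℝ 2 (fun t => u (Function.update x i t)) (x i)) :
    lap (fun y => u y + F (rho y)) x =
      lap u x + 4 * rho x * F'' (rho x) + 2 * n * F' (rho x) := by
  unfold lap
  have h1 : ∀ i, iteratedDeriv 2 (fun t => u (Function.update x i t) +
      F (rho (Function.update x i t))) (x i) =
      iteratedDeriv 2 (fun t => u (Function.update x i t)) (x i) +
        (F'' (rho x) * (2 * x i) ^ 2 + F' (rho x) * 2) := by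
    intro i
    have := iteratedDeriv_fun_add (hu i) (line_cd hFc x i hx)
    rw [this, line_rad hF hF' x i hx]
  simp only [h1]
  rw [Finset.sum_add_distrib, Finset.sum_add_distrib]
  have h2 : ∑ i, F'' (rho x) * (2 * x i) ^ 2 = 4 * rho x * F'' (rho x) := by
    have h3 : ∀ i, F'' (rho x) * (2 * x i) ^ 2 = 4 * F'' (rho x) * x i ^ 2 := fun i => by ring
    simp only [h3]
    rw [← Finset.mul_sum]
    show 4 * F'' (rho x) * rho x = _
    ring
  have h3 : ∑ _i : Fin n, F' (rho x) * 2 = 2 * n * F' (rho x) := by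
    simp
    ring
  rw [h2, h3]
  ring

theorem sd_nonneg {f : ℝ → ℝ} {a : ℝ} (hf : ContDiffAt ℝ 2 f a) (hm : IsLocalMin f a) :
    0 ≤ iteratedDeriv 2 f a := by
  by_contra hneg
  push Not at hneg
  have h2 : iteratedDeriv 2 f a = deriv (deriv f) a := by
    rw [iteratedDeriv_succ, iteratedDeriv_one]
  rw [h2] at hneg
  have hd : deriv f a = 0 := hm.deriv_eq_zero
  have hM := isLocalMax_of_deriv_deriv_neg hneg hd hf.continuousAt
  have hev : f =ᶠ[𝓝 a] fun _ => f a := by
    filter_upwards [hm, hM] with t h1 h2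
    exact le_antisymm h2 h1
  have hd2 : deriv f =ᶠ[𝓝 a] fun _ => 0 := by
    filter_upwards [hev.eventuallyEq_nhds] with t ht
    rw [ht.deriv_eq]
    simp
  rw [hd2.deriv_eq] at hneg
  simp at hneg

theorem isCompact_shell (a b : ℝ) : IsCompact {x : Fin n → ℝ | a ≤ rho x ∧ rho x ≤ b} := by
  have hcl : IsClosed {x : Fin n → ℝ | a ≤ rho x ∧ rho x ≤ b} :=
    (isClosed_le continuous_const continuous_rho).inter
      (isClosed_le continuous_rho continuous_const)
  refine IsCompact.of_isClosed_subset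
    (isCompact_univ_pi (s := fun _ : Fin n => Set.Icc (-(b + 1)) (b + 1)) fun _ => isCompact_Icc)
    hcl ?_
  rintro x ⟨_, h2⟩ i _
  have h3 := coord_sq_le x i
  constructor
  · nlinarith [sq_nonneg (x i + 1)]
  · nlinarith [sq_nonneg (x i - 1)]

/-- Weak minimum principle on a shell `a ≤ ρ ≤ b`. -/
theorem cmp (hn : 0 < n) {z : (Fin n → ℝ) → ℝ} {a b : ℝ} (ha : 0 < a) (hab : a < b)
    (hc : ContinuousOn z {x | a ≤ rho x ∧ rho x ≤ b})
    (hs : ∀ x, a < rho x → rho x < b → ∀ i, ContDiffAt ℝ 2 (fun t => z (Function.update x i t)) (x i))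
    (hl : ∀ x, a < rho x → rho x < b → lap z x ≤ 0)
    (hbd : ∀ x, (rho x = a ∨ rho x = b) → 0 ≤ z x) :
    ∀ x, a ≤ rho x → rho x ≤ b → 0 ≤ z x := by
  intro x0 h1 h2
  by_contra hneg
  push Not at hneg
  have hb : 0 < b := ha.trans hab
  set η := - z x0 / (2 * b) with hη
  have hη0 : 0 < η := div_pos (by linarith) (by linarith)
  have hzx0 : z x0 = - (2 * b * η) := by
    rw [hη]
    field_simp
  let F : ℝ → ℝ := fun r => - η * r
  let y : (Fin n → ℝ) → ℝ := fun x => z x + F (rho x)
  have hFc : ∀ r, 0 < r → ContDiffAt ℝ 2 F r := fun r _ => by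
    show ContDiffAt ℝ 2 (fun r => - η * r) r
    fun_prop
  have hF1 : ∀ r, 0 < r → HasDerivAt F (-η) r := fun r _ => by
    have h := (hasDerivAt_id r).const_mul (-η)
    rw [mul_one] at h
    exact h
  have hF2 : ∀ r, 0 < r → HasDerivAt (fun _ : ℝ => -η) 0 r := fun r _ => hasDerivAt_const r _
  have hyc : ContinuousOn y {x | a ≤ rho x ∧ rho x ≤ b} :=
    hc.add (continuous_const.mul continuous_rho).continuousOn
  obtain ⟨xs, hxs, hmin⟩ := (isCompact_shell a b).exists_isMinOn ⟨x0, h1, h2⟩ hyc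
  have hmin' : ∀ x, a ≤ rho x → rho x ≤ b → y xs ≤ y x := fun x h3 h4 => hmin ⟨h3, h4⟩
  have hy0 : y xs ≤ - (2 * b * η) := by
    have h3 := hmin' x0 h1 h2
    have h4 : y x0 = z x0 - η * rho x0 := by
      show z x0 + - η * rho x0 = _
      ring
    have h5 : 0 ≤ η * rho x0 := mul_nonneg hη0.le (ha.le.trans h1)
    rw [h4, hzx0] at h3
    linarith
  have hxs1 : a ≤ rho xs := hxs.1
  have hxs2 : rho xs ≤ b := hxs.2
  have hint : a < rho xs ∧ rho xs < b := by
    have key : ¬ (rho xs = a ∨ rho xs = b) := by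
      intro h
      have h3 := hbd xs h
      have h4 : y xs = z xs - η * rho xs := by
        show z xs + - η * rho xs = _
        ring
      have h5 : η * rho xs ≤ η * b := mul_le_mul_of_nonneg_left hxs2 hη0.le
      have h6 : 0 < η * b := mul_pos hη0 hb
      rw [h4] at hy0
      nlinarith
    push Not at key
    exact ⟨lt_of_le_of_ne hxs1 (Ne.symm key.1), lt_of_le_of_ne hxs2 key.2⟩
  have hxspos : 0 < rho xs := ha.trans hint.1
  have hline : ∀ i, ContDiffAt ℝ 2 (fun t => y (Function.update xs i t)) (xs i) := fun i =>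
    (hs xs hint.1 hint.2 i).add (line_cd hFc xs i hxspos)
  have hlocmin : ∀ i, IsLocalMin (fun t => y (Function.update xs i t)) (xs i) := by
    intro i
    have hcont : Continuous (fun t : ℝ => rho (Function.update xs i t)) := by
      have e : (fun t : ℝ => rho (Function.update xs i t)) =
          fun t => rho xs - xs i ^ 2 + t ^ 2 := by
        funext t
        exact rho_update xs i t
      rw [e]
      fun_prop
    have hval : rho (Function.update xs i (xs i)) = rho xs := by
      rw [Function.update_eq_self]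
    have e1 : ∀ᶠ t in 𝓝 (xs i), a < rho (Function.update xs i t) :=
      hcont.continuousAt.eventually (lt_mem_nhds (by
        show a < rho (Function.update xs i (xs i))
        rw [hval]; exact hint.1))
    have e2 : ∀ᶠ t in 𝓝 (xs i), rho (Function.update xs i t) < b :=
      hcont.continuousAt.eventually (gt_mem_nhds (by
        show rho (Function.update xs i (xs i)) < b
        rw [hval]; exact hint.2))
    filter_upwards [e1, e2] with t h3 h4
    show y (Function.update xs i (xs i)) ≤ y (Function.update xs i t)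
    rw [Function.update_eq_self]
    exact hmin' _ h3.le h4.le
  have hlapy : 0 ≤ lap y xs :=
    Finset.sum_nonneg fun i _ => sd_nonneg (hline i) (hlocmin i)
  have hval := lap_add_rad (u := z) hFc hF1 hF2 xs hxspos (hs xs hint.1 hint.2)
  have hval' : lap y xs = lap z xs + 4 * rho xs * 0 + 2 * n * (-η) := hval
  have h7 := hl xs hint.1 hint.2
  have hn' : (0 : ℝ) < n := by exact_mod_cast hn
  rw [hval'] at hlapy
  nlinarith [mul_pos hn' hη0]

theorem line_of_on {u : (Fin n → ℝ) → ℝ} (su : ContDiffOn ℝ 2 u {x | x ≠ 0}) {x : Fin n → ℝ}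
    (hx : x ≠ 0) (i : Fin n) : ContDiffAt ℝ 2 (fun t => u (Function.update x i t)) (x i) := by
  have h1 : ContDiffAt ℝ 2 u x := su.contDiffAt (isOpen_ne.mem_nhds hx)
  have h2 : ContDiff ℝ 2 (fun t : ℝ => Function.update x i t) := by
    rw [contDiff_pi]
    intro j
    by_cases h : j = i
    · subst h
      simp only [Function.update_self]
      exact contDiff_id
    · simpa [Function.update_of_ne h] using contDiff_const
  have h3 : ContDiffAt ℝ 2 u (Function.update x i (x i)) := by
    rw [Function.update_eq_self]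
    exact h1
  exact h3.comp (x i) h2.contDiffAt

theorem exists_small {κ ε β ρ0 : ℝ} (hκ : 0 < κ) (hε : 0 < ε) (hβ : β < 0) (hρ : 0 < ρ0) :
    ∃ a, 0 < a ∧ a ≤ ρ0 ∧ 0 ≤ κ * log a + ε * a ^ β := by
  have hγ : 0 < -β := by linarith
  have h1 := (isLittleO_log_rpow_atTop hγ).def (c := ε / κ) (div_pos hε hκ)
  obtain ⟨w, hw1, hw2⟩ := (h1.and (eventually_ge_atTop (max 1 (1 / ρ0)))).exists
  have hw3 : 1 ≤ w := (le_max_left _ _).trans hw2
  have hw4 : 1 / ρ0 ≤ w := (le_max_right _ _).trans hw2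
  have hw0 : 0 < w := by linarith
  refine ⟨w⁻¹, inv_pos.2 hw0, ?_, ?_⟩
  · rw [inv_le_comm₀ hw0 hρ]
    simpa [one_div] using hw4
  · have e1 : log w⁻¹ = - log w := Real.log_inv w
    have e2 : (w⁻¹) ^ β = w ^ (-β) := by
      rw [Real.inv_rpow hw0.le, Real.rpow_neg hw0.le]
    rw [e1, e2]
    have hl : 0 ≤ log w := Real.log_nonneg hw3
    have hp : 0 < w ^ (-β) := Real.rpow_pos_of_pos hw0 _
    rw [Real.norm_eq_abs, Real.norm_eq_abs, abs_of_nonneg hl, abs_of_pos hp] at hw1
    have h3 : κ * log w ≤ κ * (ε / κ * w ^ (-β)) := mul_le_mul_of_nonneg_left hw1 hκ.le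
    have h4 : κ * (ε / κ * w ^ (-β)) = ε * w ^ (-β) := by
      field_simp
    linarith

/-- Core of the case `A ≤ -2`, `n ≥ 3`. -/
theorem no_sol_core (hn : 3 ≤ n) {A p : ℝ} (hA : A ≤ -2) {u v : (Fin n → ℝ) → ℝ}
    (cu : Continuous u) (cv : Continuous v) (su : ContDiffOn ℝ 2 u {x | x ≠ 0})
    (pu : ∀ x, 0 < u x) (pv : ∀ x, 0 < v x)
    (eq : ∀ x, x ≠ 0 → - lap u x = nrm x ^ A * v x ^ p) : False := by
  have hn0 : 0 < n := by omega
  have hn3 : (3 : ℝ) ≤ n := by exact_mod_cast hn
  have hKc : IsCompact {x : Fin n → ℝ | 0 ≤ rho x ∧ rho x ≤ 1} := isCompact_shell 0 1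
  have hKne : ({x : Fin n → ℝ | 0 ≤ rho x ∧ rho x ≤ 1}).Nonempty := ⟨0, by simp [rho]⟩
  have cvp : Continuous (fun x => v x ^ p) := cv.rpow_const fun x => Or.inl (pv x).ne'
  obtain ⟨x1, -, hmin⟩ := hKc.exists_isMinOn hKne cvp.continuousOn
  obtain ⟨x2, -, hmax⟩ := hKc.exists_isMaxOn hKne cu.continuousOn
  set c0 := v x1 ^ p with hc0
  have hc0p : 0 < c0 := Real.rpow_pos_of_pos (pv x1) _
  set U := u x2 with hU
  have hUp : 0 < U := pu x2
  have hmin' : ∀ x, rho x ≤ 1 → c0 ≤ v x ^ p := fun x h => hmin ⟨rho_nonneg x, h⟩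
  have hmax' : ∀ x, rho x ≤ 1 → u x ≤ U := fun x h => hmax ⟨rho_nonneg x, h⟩
  have hlapu : ∀ x, 0 < rho x → rho x ≤ 1 → lap u x ≤ - (c0 * (rho x)⁻¹) := by
    intro x h0 h1
    have hx := ne_of_rho_pos h0
    have h2 := eq x hx
    have hs0 : 0 < sqrt (rho x) := Real.sqrt_pos.2 h0
    have hs1 : sqrt (rho x) ≤ 1 := Real.sqrt_le_one.2 h1
    have h3 : (rho x)⁻¹ ≤ nrm x ^ A := by
      have h4 := Real.rpow_le_rpow_of_exponent_ge hs0 hs1 hA
      have h5 : sqrt (rho x) ^ (-2 : ℝ) = (rho x)⁻¹ := by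
        rw [Real.rpow_neg hs0.le]
        have : sqrt (rho x) ^ (2 : ℝ) = rho x := by
          rw [Real.rpow_two]
          exact Real.sq_sqrt h0.le
        rw [this]
      rw [h5] at h4
      exact h4
    have h6 := hmin' x h1
    have h7 : c0 * (rho x)⁻¹ ≤ nrm x ^ A * v x ^ p := by
      have h8 : 0 < (rho x)⁻¹ := inv_pos.2 h0
      calc c0 * (rho x)⁻¹ ≤ v x ^ p * nrm x ^ A :=
            mul_le_mul h6 h3 h8.le (Real.rpow_nonneg (pv x).le _)
        _ = _ := by ring
    linarith
  have hden : 0 < 2 * (n : ℝ) - 4 := by linarith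
  set κ := c0 / (2 * (n : ℝ) - 4) with hκd
  have hκ : 0 < κ := div_pos hc0p hden
  have hκ2 : (2 * (n : ℝ) - 4) * κ = c0 := by
    rw [hκd]
    field_simp
  set β : ℝ := (2 - n) / 2 with hβd
  have hβ : β < 0 := by rw [hβd]; linarith
  have hβ0 : 2 * β - 2 + n = 0 := by rw [hβd]; ring
  have key : ∀ ε, 0 < ε → ∀ x, 0 < rho x → rho x < 1 → 0 ≤ u x + (κ * log (rho x) + ε * rho x ^ β) := by
    intro ε hε x h0 h1
    obtain ⟨a, ha0, ha1, ha2⟩ := exists_small hκ hε hβ h0
    let F : ℝ → ℝ := fun r => κ * log r + ε * r ^ β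
    let F' : ℝ → ℝ := fun r => κ * r⁻¹ + ε * (β * r ^ (β - 1))
    let F'' : ℝ → ℝ := fun r => κ * (-(r ^ 2)⁻¹) + ε * (β * ((β - 1) * r ^ (β - 1 - 1)))
    have hFc : ∀ r, 0 < r → ContDiffAt ℝ 2 F r := fun r hr => by
      have h1 : ContDiffAt ℝ 2 log r := Real.contDiffAt_log.2 hr.ne'
      have h2 : ContDiffAt ℝ 2 (fun x : ℝ => x ^ β) r := Real.contDiffAt_rpow_const_of_ne hr.ne'
      exact (contDiffAt_const.mul h1).add (contDiffAt_const.mul h2)
    have hF1 : ∀ r, 0 < r → HasDerivAt F (F' r) r := fun r hr =>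
      ((Real.hasDerivAt_log hr.ne').const_mul κ).add
        ((Real.hasDerivAt_rpow_const (Or.inl hr.ne')).const_mul ε)
    have hF2 : ∀ r, 0 < r → HasDerivAt F' (F'' r) r := fun r hr =>
      ((hasDerivAt_inv hr.ne').const_mul κ).add
        (((Real.hasDerivAt_rpow_const (Or.inl hr.ne')).const_mul β).const_mul ε)
    let z : (Fin n → ℝ) → ℝ := fun y => u y + F (rho y)
    have ha3 : a < 1 := lt_of_le_of_lt ha1 h1
    have hz := cmp hn0 (z := z) ha0 ha3 ?_ ?_ ?_ ?_ x ha1 h1.le
    · exact hz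
    · intro y hy
      have hy0 : 0 < rho y := lt_of_lt_of_le ha0 hy.1
      exact (cu.continuousAt.add
        ((hFc _ hy0).continuousAt.comp continuous_rho.continuousAt)).continuousWithinAt
    · intro y hy1 _ i
      have hy0 : 0 < rho y := ha0.trans hy1
      exact (line_of_on su (ne_of_rho_pos hy0) i).add (line_cd hFc y i hy0)
    · intro y hy1 hy2
      have hy0 : 0 < rho y := ha0.trans hy1
      have hv := lap_add_rad (u := u) hFc hF1 hF2 y hy0 (line_of_on su (ne_of_rho_pos hy0))
      have hv' : lap z y = lap u y + 4 * rho y * F'' (rho y) + 2 * n * F' (rho y) := hv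
      rw [hv']
      have hl := hlapu y hy0 hy2.le
      set r := rho y with hr
      have hw : r ^ (β - 1 - 1) = r ^ (β - 1) * r⁻¹ := by
        rw [Real.rpow_sub_one hy0.ne' (β - 1), div_eq_mul_inv]
      simp only [F', F'']
      rw [hw]
      set w := r ^ (β - 1)
      have e : 4 * r * (κ * (-(r ^ 2)⁻¹) + ε * (β * ((β - 1) * (w * r⁻¹)))) +
          2 * n * (κ * r⁻¹ + ε * (β * w)) =
          (2 * (n : ℝ) - 4) * κ * r⁻¹ + 2 * ε * β * w * (2 * β - 2 + n) := by
        field_simp
        ring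
      have e2 : lap u y + 4 * r * (κ * (-(r ^ 2)⁻¹) + ε * (β * ((β - 1) * (w * r⁻¹)))) +
          2 * n * (κ * r⁻¹ + ε * (β * w)) = lap u y +
          ((2 * (n : ℝ) - 4) * κ * r⁻¹ + 2 * ε * β * w * (2 * β - 2 + n)) := by
        rw [← e]
        ring
      rw [e2, hβ0, hκ2]
      linarith
    · intro y hy
      rcases hy with hy | hy
      · show 0 ≤ u y + (κ * log (rho y) + ε * rho y ^ β)
        rw [hy]
        linarith [pu y]
      · show 0 ≤ u y + (κ * log (rho y) + ε * rho y ^ β)
        rw [hy]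
        simp only [Real.log_one, mul_zero, zero_add, Real.one_rpow, mul_one]
        linarith [pu y]
  have key2 : ∀ x, 0 < rho x → rho x < 1 → 0 ≤ u x + κ * log (rho x) := by
    intro x h0 h1
    by_contra hneg
    push Not at hneg
    set s := u x + κ * log (rho x) with hs
    have hp : 0 < rho x ^ β := Real.rpow_pos_of_pos h0 _
    have h2 := key (- s / (2 * rho x ^ β)) (div_pos (by linarith) (by positivity)) x h0 h1
    have h3 : - s / (2 * rho x ^ β) * rho x ^ β = - s / 2 := by
      field_simp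
    have h4 : u x + (κ * log (rho x) + - s / (2 * rho x ^ β) * rho x ^ β) = s + - s / 2 := by
      rw [h3, hs]
      ring
    rw [h4] at h2
    linarith
  set i0 : Fin n := ⟨0, hn0⟩
  have hq : 0 < (U + 1) / (2 * κ) := by positivity
  set s0 := exp (- ((U + 1) / (2 * κ))) with hs0
  have hs0p : 0 < s0 := exp_pos _
  have hs1 : s0 < 1 := by
    have h9 : exp (- ((U + 1) / (2 * κ))) < exp 0 := Real.exp_lt_exp.2 (by linarith)
    rwa [Real.exp_zero] at h9
  set xs : Fin n → ℝ := Function.update 0 i0 s0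
  have hrx : rho xs = s0 ^ 2 := by
    rw [rho_update]
    simp [rho]
  have h0 : 0 < rho xs := by rw [hrx]; positivity
  have h1 : rho xs < 1 := by
    rw [hrx]
    nlinarith
  have h2 := key2 xs h0 h1
  have h3 := hmax' xs h1.le
  have h4 : κ * log (rho xs) = - (U + 1) := by
    rw [hrx, Real.log_pow, hs0, Real.log_exp]
    push_cast
    field_simp
  rw [h4] at h2
  linarith

/-- The case `n = 2`. -/
theorem no_sol_two (hn : n = 2) {A p : ℝ} {u v : (Fin n → ℝ) → ℝ}
    (cu : Continuous u) (su : ContDiffOn ℝ 2 u {x | x ≠ 0})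
    (pu : ∀ x, 0 < u x) (pv : ∀ x, 0 < v x)
    (eq : ∀ x, x ≠ 0 → - lap u x = nrm x ^ A * v x ^ p) : False := by
  have hn0 : 0 < n := by omega
  have hnr : (n : ℝ) = 2 := by exact_mod_cast hn
  set i0 : Fin n := ⟨0, hn0⟩
  have hSc : IsCompact {x : Fin n → ℝ | 1 ≤ rho x ∧ rho x ≤ 1} := isCompact_shell 1 1
  have hSne : ({x : Fin n → ℝ | 1 ≤ rho x ∧ rho x ≤ 1}).Nonempty := by
    refine ⟨Function.update 0 i0 1, ?_⟩
    have : rho (Function.update (0 : Fin n → ℝ) i0 1) = 1 := by
      rw [rho_update]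
      simp [rho]
    simp [this]
  obtain ⟨xs, hxs, hmin⟩ := hSc.exists_isMinOn hSne cu.continuousOn
  set m := u xs with hm
  have hmp : 0 < m := pu xs
  have hm1 : ∀ x, rho x = 1 → m ≤ u x := fun x h => hmin ⟨h.ge, h.le⟩
  have hxs1 : rho xs = 1 := le_antisymm hxs.2 hxs.1
  have hlapneg : ∀ x, x ≠ 0 → lap u x < 0 := by
    intro x hx
    have h1 := eq x hx
    have h2 : 0 < nrm x ^ A := Real.rpow_pos_of_pos (Real.sqrt_pos.2 (rho_pos_of_ne hx)) _
    have h3 : 0 < v x ^ p := Real.rpow_pos_of_pos (pv x) _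
    have h4 := mul_pos h2 h3
    linarith
  -- the barrier `c log r - m`
  have barrier : ∀ c : ℝ, ∀ a b : ℝ, 0 < a → a < b →
      (∀ x, rho x = a → 0 ≤ u x + (c * log (rho x) - m)) →
      (∀ x, rho x = b → 0 ≤ u x + (c * log (rho x) - m)) →
      ∀ x, a ≤ rho x → rho x ≤ b → 0 ≤ u x + (c * log (rho x) - m) := by
    intro c a b ha hab h1 h2
    let F : ℝ → ℝ := fun r => c * log r - m
    let F' : ℝ → ℝ := fun r => c * r⁻¹
    let F'' : ℝ → ℝ := fun r => c * (-(r ^ 2)⁻¹)
    have hFc : ∀ r, 0 < r → ContDiffAt ℝ 2 F r := fun r hr => by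
      have h1 : ContDiffAt ℝ 2 log r := Real.contDiffAt_log.2 hr.ne'
      exact (contDiffAt_const.mul h1).sub contDiffAt_const
    have hF1 : ∀ r, 0 < r → HasDerivAt F (F' r) r := fun r hr =>
      ((Real.hasDerivAt_log hr.ne').const_mul c).sub_const m
    have hF2 : ∀ r, 0 < r → HasDerivAt F' (F'' r) r := fun r hr =>
      (hasDerivAt_inv hr.ne').const_mul c
    refine cmp hn0 (z := fun y => u y + F (rho y)) ha hab ?_ ?_ ?_ ?_
    · intro y hy
      have hy0 : 0 < rho y := lt_of_lt_of_le ha hy.1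
      exact (cu.continuousAt.add
        ((hFc _ hy0).continuousAt.comp continuous_rho.continuousAt)).continuousWithinAt
    · intro y hy1 _ i
      have hy0 : 0 < rho y := ha.trans hy1
      exact (line_of_on su (ne_of_rho_pos hy0) i).add (line_cd hFc y i hy0)
    · intro y hy1 hy2
      have hy0 : 0 < rho y := ha.trans hy1
      have hy' := ne_of_rho_pos hy0
      rw [lap_add_rad (u := u) hFc hF1 hF2 y hy0 (line_of_on su hy')]
      have h3 := hlapneg y hy'
      have e : 4 * rho y * F'' (rho y) + 2 * n * F' (rho y) = 0 := by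
        simp only [F', F'']
        rw [hnr]
        field_simp
        ring
      linarith
    · intro y hy
      rcases hy with hy | hy
      · exact h1 y hy
      · exact h2 y hy
  -- below the unit sphere
  have hlow : ∀ x, 0 < rho x → rho x < 1 → m ≤ u x := by
    intro x h0 h1
    by_contra hneg
    push Not at hneg
    have hlog : log (rho x) < 0 := Real.log_neg h0 h1
    set ε := (m - u x) / (2 * (- log (rho x))) with hε
    have hε0 : 0 < ε := div_pos (by linarith) (by linarith)
    set a := min (rho x) (exp (- (m / ε))) with ha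
    have ha0 : 0 < a := lt_min h0 (exp_pos _)
    have ha1 : a ≤ rho x := min_le_left _ _
    have ha2 : a ≤ exp (- (m / ε)) := min_le_right _ _
    have ha3 : a < 1 := lt_of_le_of_lt ha1 h1
    have hla : log a ≤ - (m / ε) := by
      have := Real.log_le_log ha0 ha2
      rwa [Real.log_exp] at this
    have h2 := barrier (-ε) a 1 ha0 ha3 ?_ ?_ x ha1 h1.le
    · have hne : log (rho x) ≠ 0 := hlog.ne
      have h3 : -ε * log (rho x) = (m - u x) / 2 := by
        rw [hε]
        field_simp
      rw [h3] at h2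
      linarith
    · intro y hy
      rw [hy]
      have h5 : -ε * log a ≥ m := by
        have h6 : ε * (m / ε) = m := by field_simp
        nlinarith
      linarith [pu y]
    · intro y hy
      rw [hy]
      have := hm1 y hy
      simp only [Real.log_one, mul_zero]
      linarith
  -- above the unit sphere
  have hhigh : ∀ x, 1 < rho x → m ≤ u x := by
    intro x h1
    by_contra hneg
    push Not at hneg
    have hlog : 0 < log (rho x) := Real.log_pos h1
    set ε := (m - u x) / (2 * log (rho x)) with hε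
    have hε0 : 0 < ε := div_pos (by linarith) (by linarith)
    set b := max (rho x) (exp (m / ε)) with hb
    have hb1 : rho x ≤ b := le_max_left _ _
    have hb2 : exp (m / ε) ≤ b := le_max_right _ _
    have hb3 : 1 < b := lt_of_lt_of_le h1 hb1
    have hlb : m / ε ≤ log b := by
      have := Real.log_le_log (exp_pos _) hb2
      rwa [Real.log_exp] at this
    have h2 := barrier ε 1 b one_pos hb3 ?_ ?_ x h1.le hb1
    · have hne : log (rho x) ≠ 0 := hlog.ne'
      have h3 : ε * log (rho x) = (m - u x) / 2 := by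
        rw [hε]
        field_simp
      rw [h3] at h2
      linarith
    · intro y hy
      rw [hy]
      have := hm1 y hy
      simp only [Real.log_one, mul_zero]
      linarith
    · intro y hy
      rw [hy]
      have h5 : ε * log b ≥ m := by
        have h6 : ε * (m / ε) = m := by field_simp
        nlinarith
      linarith [pu y]
  have hall : ∀ x, x ≠ 0 → m ≤ u x := by
    intro x hx
    have h0 := rho_pos_of_ne hx
    rcases lt_trichotomy (rho x) 1 with h | h | h
    · exact hlow x h0 h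
    · exact hm1 x h
    · exact hhigh x h
  have hxs0 : 0 < rho xs := by rw [hxs1]; exact one_pos
  have hxsne := ne_of_rho_pos hxs0
  have hlocmin : ∀ i, IsLocalMin (fun t => u (Function.update xs i t)) (xs i) := by
    intro i
    have hcont : Continuous (fun t : ℝ => rho (Function.update xs i t)) := by
      have e : (fun t : ℝ => rho (Function.update xs i t)) =
          fun t => rho xs - xs i ^ 2 + t ^ 2 := by
        funext t
        exact rho_update xs i t
      rw [e]
      fun_prop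
    have hval : rho (Function.update xs i (xs i)) = rho xs := by
      rw [Function.update_eq_self]
    have e1 : ∀ᶠ t in 𝓝 (xs i), 0 < rho (Function.update xs i t) :=
      hcont.continuousAt.eventually (lt_mem_nhds (by
        show 0 < rho (Function.update xs i (xs i))
        rw [hval]; exact hxs0))
    filter_upwards [e1] with t h3
    show u (Function.update xs i (xs i)) ≤ u (Function.update xs i t)
    rw [Function.update_eq_self]
    exact hall _ (ne_of_rho_pos h3)
  have hlapu : 0 ≤ lap u xs :=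
    Finset.sum_nonneg fun i _ => sd_nonneg (line_of_on su hxsne i) (hlocmin i)
  linarith [hlapneg xs hxsne]

/-- Main theorem: no positive entire solution if `n = 2`, or `A ≤ -2`, or `B ≤ -2`. -/
theorem no_sol (hn : 2 ≤ n) {A B p q : ℝ} (hcase : n = 2 ∨ A ≤ -2 ∨ B ≤ -2)
    {u v : (Fin n → ℝ) → ℝ} (sol : IsSol A B p q u v) : False := by
  by_cases h2 : n = 2
  · exact no_sol_two h2 sol.contU sol.smU sol.posU sol.posV sol.eqU
  have h3 : 3 ≤ n := by omega
  rcases hcase with h | h | h
  · exact h2 h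
  · exact no_sol_core h3 h sol.contU sol.contV sol.smU sol.posU sol.posV sol.eqU
  · exact no_sol_core h3 h sol.contV sol.contU sol.smV sol.posV sol.posU sol.eqV

end Vale.Agent.Lib.P100
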