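import Vale.Agent.Lib.P100.Core

/-!
P100: Mitidieri type nonexistence region for the system with arbitrary real weights, by iterated
barriers only (no integral identities, no boundedness or decay assumption).
-/

open Real Filter Topology

noncomputable section
namespace Vale.Agent.Lib.P100
variable {n : ℕ}

theorem nrm_rpow {x : Fin n → ℝ} (hx : 0 < rho x) (A : ℝ) : nrm x ^ A = rho x ^ (A / 2) := by
  unfold nrm
  rw [Real.sqrt_eq_rpow, ← Real.rpow_mul hx.le]
  congr 1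
  ring

theorem IsSol.swap {A B p q : ℝ} {u v : (Fin n → ℝ) → ℝ} (s : IsSol A B p q u v) :
    IsSol B A q p v u :=
  ⟨s.contV, s.contU, s.smV, s.smU, s.posV, s.posU, s.eqV, s.eqU⟩

theorem barrier3 (hn0 : 0 < n) {h : (Fin n → ℝ) → ℝ} (ch : Continuous h)
    (sh : ContDiffOn ℝ 2 h {x | x ≠ 0}) (d0 d1 d2 γ : ℝ) {a b : ℝ} (ha : 0 < a) (hab : a < b)
    (hL : ∀ x, a < rho x → rho x < b → lap h x +
      ((2 * (n : ℝ) - 4) * d1 * (rho x)⁻¹ + 2 * d2 * γ * (2 * γ - 2 + n) * rho x ^ (γ - 1)) ≤ 0)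
    (h1 : ∀ x, rho x = a → 0 ≤ h x + (d0 + d1 * log (rho x) + d2 * rho x ^ γ))
    (h2 : ∀ x, rho x = b → 0 ≤ h x + (d0 + d1 * log (rho x) + d2 * rho x ^ γ)) :
    ∀ x, a ≤ rho x → rho x ≤ b → 0 ≤ h x + (d0 + d1 * log (rho x) + d2 * rho x ^ γ) := by
  let F : ℝ → ℝ := fun r => d0 + d1 * log r + d2 * r ^ γ
  let F' : ℝ → ℝ := fun r => d1 * r⁻¹ + d2 * (γ * r ^ (γ - 1))
  let F'' : ℝ → ℝ := fun r => d1 * (-(r ^ 2)⁻¹) + d2 * (γ * ((γ - 1) * r ^ (γ - 1 - 1)))
  have hFc : ∀ r, 0 < r → ContDiffAt ℝ 2 F r := fun r hr => by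
    have h1 : ContDiffAt ℝ 2 log r := Real.contDiffAt_log.2 hr.ne'
    have h2 : ContDiffAt ℝ 2 (fun x : ℝ => x ^ γ) r := Real.contDiffAt_rpow_const_of_ne hr.ne'
    exact (contDiffAt_const.add (contDiffAt_const.mul h1)).add (contDiffAt_const.mul h2)
  have hF1 : ∀ r, 0 < r → HasDerivAt F (F' r) r := fun r hr => by
    have a1 : HasDerivAt (fun r : ℝ => d0 + d1 * log r) (d1 * r⁻¹) r :=
      ((Real.hasDerivAt_log hr.ne').const_mul d1).const_add d0
    have a2 : HasDerivAt (fun r : ℝ => d2 * r ^ γ) (d2 * (γ * r ^ (γ - 1))) r :=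
      (Real.hasDerivAt_rpow_const (Or.inl hr.ne')).const_mul d2
    exact a1.add a2
  have hF2 : ∀ r, 0 < r → HasDerivAt F' (F'' r) r := fun r hr => by
    have a0 := hasDerivAt_inv hr.ne'
    have a1 : HasDerivAt (fun r : ℝ => d1 * r⁻¹) (d1 * (-(r ^ 2)⁻¹)) r := a0.const_mul d1
    have a2 : HasDerivAt (fun r : ℝ => d2 * (γ * r ^ (γ - 1)))
        (d2 * (γ * ((γ - 1) * r ^ (γ - 1 - 1)))) r :=
      ((Real.hasDerivAt_rpow_const (Or.inl hr.ne')).const_mul γ).const_mul d2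
    exact a1.add a2
  refine cmp hn0 (z := fun y => h y + F (rho y)) ha hab ?_ ?_ ?_ ?_
  · intro y hy
    have hy0 : 0 < rho y := lt_of_lt_of_le ha hy.1
    exact (ch.continuousAt.add
      ((hFc _ hy0).continuousAt.comp continuous_rho.continuousAt)).continuousWithinAt
  · intro y hy1 _ i
    have hy0 : 0 < rho y := ha.trans hy1
    exact (line_of_on sh (ne_of_rho_pos hy0) i).add (line_cd hFc y i hy0)
  · intro y hy1 hy2
    have hy0 : 0 < rho y := ha.trans hy1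
    have hy' := ne_of_rho_pos hy0
    rw [lap_add_rad (u := h) hFc hF1 hF2 y hy0 (line_of_on sh hy')]
    have h3 := hL y hy1 hy2
    set r := rho y with hr
    have hw : r ^ (γ - 1 - 1) = r ^ (γ - 1) * r⁻¹ := by
      rw [Real.rpow_sub_one hy0.ne' (γ - 1), div_eq_mul_inv]
    simp only [F', F'']
    rw [hw]
    set w := r ^ (γ - 1)
    have e : 4 * r * (d1 * (-(r ^ 2)⁻¹) + d2 * (γ * ((γ - 1) * (w * r⁻¹)))) +
        2 * n * (d1 * r⁻¹ + d2 * (γ * w)) =
        (2 * (n : ℝ) - 4) * d1 * r⁻¹ + 2 * d2 * γ * (2 * γ - 2 + n) * w := by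
      field_simp
      ring
    have e2 : lap h y + 4 * r * (d1 * (-(r ^ 2)⁻¹) + d2 * (γ * ((γ - 1) * (w * r⁻¹)))) +
        2 * n * (d1 * r⁻¹ + d2 * (γ * w)) = lap h y +
        ((2 * (n : ℝ) - 4) * d1 * r⁻¹ + 2 * d2 * γ * (2 * γ - 2 + n) * w) := by
      rw [← e]
      ring
    rw [e2]
    exact h3
  · intro y hy
    rcases hy with hy | hy
    · exact h1 y hy
    · exact h2 y hy

/-- Lower bound `c ρ^(-τ)` outside the unit ball. -/
theorem lower_bd (hn0 : 0 < n) {h : (Fin n → ℝ) → ℝ} (ch : Continuous h)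
    (sh : ContDiffOn ℝ 2 h {x | x ≠ 0}) (ph : ∀ x, 0 < h x) {c τ : ℝ} (hc : 0 < c) (hτ : 0 < τ)
    (h1 : ∀ x, rho x = 1 → c ≤ h x)
    (hL : ∀ x, 1 < rho x → lap h x + 2 * c * τ * ((n : ℝ) - 2 - 2 * τ) * rho x ^ (-τ - 1) ≤ 0) :
    ∀ x, 1 ≤ rho x → c * rho x ^ (-τ) ≤ h x := by
  intro x hx
  by_contra hneg
  push Not at hneg
  set ε := (c * rho x ^ (-τ) - h x) / 2 with hε
  have hε0 : 0 < ε := div_pos (by linarith) two_pos
  have hlim := tendsto_rpow_neg_atTop hτ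
  have hev := (hlim.eventually (gt_mem_nhds (div_pos hε0 hc))).and
    (eventually_gt_atTop (max 1 (rho x)))
  obtain ⟨b, hb1, hb2⟩ := hev.exists
  have hb3 : 1 < b := lt_of_le_of_lt (le_max_left _ _) hb2
  have hb4 : rho x < b := lt_of_le_of_lt (le_max_right _ _) hb2
  have key := barrier3 hn0 ch sh ε 0 (-c) (-τ) one_pos hb3 ?_ ?_ ?_ x hx hb4.le
  · simp only [zero_mul, zero_add] at key
    have e : ε + -c * rho x ^ (-τ) = - (c * rho x ^ (-τ)) + ε := by ring
    rw [hε] at key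
    linarith
  · intro y hy1 _
    have h3 := hL y hy1
    have e : (2 * (n : ℝ) - 4) * 0 * (rho y)⁻¹ + 2 * -c * -τ * (2 * -τ - 2 + n) * rho y ^ (-τ - 1) =
        2 * c * τ * ((n : ℝ) - 2 - 2 * τ) * rho y ^ (-τ - 1) := by ring
    rw [e]
    exact h3
  · intro y hy
    rw [hy]
    have := h1 y hy
    simp only [Real.log_one, mul_zero, add_zero, Real.one_rpow, mul_one]
    linarith
  · intro y hy
    rw [hy]
    have h3 : c * b ^ (-τ) < ε := by
      have := (lt_div_iff₀ hc).1 hb1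
      linarith
    simp only [zero_mul, add_zero]
    nlinarith [ph y]

/-- No positive `h` with `-Δh ≥ C/ρ` outside the unit ball, in dimension at least three. -/
theorem no_force (hn : 3 ≤ n) {h : (Fin n → ℝ) → ℝ} (ch : Continuous h)
    (sh : ContDiffOn ℝ 2 h {x | x ≠ 0}) (ph : ∀ x, 0 < h x) {C : ℝ} (hC : 0 < C)
    (hL : ∀ x, 1 < rho x → lap h x + C * (rho x)⁻¹ ≤ 0) : False := by
  have hn0 : 0 < n := by omega
  have hn3 : (3 : ℝ) ≤ n := by exact_mod_cast hn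
  have hden : 0 < 2 * (n : ℝ) - 4 := by linarith
  set κ := C / (2 * (n : ℝ) - 4) with hκd
  have hκ : 0 < κ := div_pos hC hden
  have hκ2 : (2 * (n : ℝ) - 4) * κ = C := by
    rw [hκd]
    field_simp
  set β : ℝ := (2 - n) / 2 with hβd
  have hβ : β < 0 := by rw [hβd]; linarith
  have hβ0 : 2 * β - 2 + n = 0 := by rw [hβd]; ring
  set i0 : Fin n := ⟨0, hn0⟩
  set x0 : Fin n → ℝ := Function.update 0 i0 2
  have hx0 : rho x0 = 4 := by
    rw [rho_update]
    simp [rho]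
    norm_num
  have h4 : (4 : ℝ) ^ β < 1 := Real.rpow_lt_one_of_one_lt_of_neg (by norm_num) hβ
  set θ := 1 - (4 : ℝ) ^ β with hθ
  have hθ0 : 0 < θ := by linarith
  have hh0 := ph x0
  set L := max (log 4 + 1) ((h x0 + κ * log 4 + 1) / (κ * θ)) with hLd
  have hL1 : log 4 + 1 ≤ L := le_max_left _ _
  have hL2 : (h x0 + κ * log 4 + 1) / (κ * θ) ≤ L := le_max_right _ _
  set b := exp L with hb
  have hlb : log b = L := Real.log_exp L
  have hb4 : 4 < b := by
    have : log 4 < L := by linarith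
    have h5 := Real.exp_lt_exp.2 this
    rwa [Real.exp_log (by norm_num : (0 : ℝ) < 4)] at h5
  have hb1 : 1 < b := by linarith
  have hbp : b ^ β < 1 := Real.rpow_lt_one_of_one_lt_of_neg hb1 hβ
  have hbp0 : 0 < b ^ β := Real.rpow_pos_of_pos (by linarith) _
  set s := 1 - b ^ β with hs
  have hs0 : 0 < s := by linarith
  have hs1 : s ≤ 1 := by linarith
  set D := κ * L / s with hD
  have hDs : D * s = κ * L := by
    rw [hD]
    field_simp
  have hLpos : 0 < L := by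
    have : (0 : ℝ) < log 4 := Real.log_pos (by norm_num)
    linarith
  have hDge : κ * L ≤ D := by
    have h6 : 0 < D := div_pos (by positivity) hs0
    nlinarith
  have key := barrier3 hn0 ch sh (-D) κ D β one_pos hb1 ?_ ?_ ?_ x0 (by rw [hx0]; norm_num)
    (by rw [hx0]; exact hb4.le)
  · rw [hx0] at key
    have h7 : κ * L * θ ≤ D * θ := mul_le_mul_of_nonneg_right hDge hθ0.le
    have h8 : h x0 + κ * log 4 + 1 ≤ L * (κ * θ) := (div_le_iff₀ (by positivity)).1 hL2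
    have h9 : 0 ≤ h x0 + (-D + κ * log 4 + D * (4 : ℝ) ^ β) := key
    have h10 : D * θ = D - D * (4 : ℝ) ^ β := by rw [hθ]; ring
    nlinarith
  · intro y hy1 _
    have h3 := hL y hy1
    rw [hβ0, hκ2]
    simp only [mul_zero, zero_mul, add_zero]
    exact h3
  · intro y hy
    rw [hy]
    simp only [Real.log_one, mul_zero, add_zero, Real.one_rpow, mul_one]
    linarith [ph y]
  · intro y hy
    rw [hy, hlb]
    have e : -D + κ * L + D * b ^ β = κ * L - D * s := by rw [hs]; ring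
    rw [e, hDs]
    linarith [ph y]

/-- One step of the bootstrap: lower bound for `u` gives a lower bound for `v`. -/
theorem boot_step (hn : 3 ≤ n) {B q : ℝ} (hq : 0 < q) {u v : (Fin n → ℝ) → ℝ}
    (pu : ∀ x, 0 < u x) (cv : Continuous v) (sv : ContDiffOn ℝ 2 v {x | x ≠ 0}) (pv : ∀ x, 0 < v x)
    (eq : ∀ x, x ≠ 0 → - lap v x = nrm x ^ B * u x ^ q) {α c : ℝ} (hc : 0 < c)
    (hlow : ∀ x, 1 ≤ rho x → c * rho x ^ (-α) ≤ u x) :
    ∃ τ c', 0 < τ ∧ τ ≤ ((n : ℝ) - 2) / 2 ∧ τ ≤ q * α - (B / 2 + 1) ∧ 0 < c' ∧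
      ∀ x, 1 ≤ rho x → c' * rho x ^ (-τ) ≤ v x := by
  have hn0 : 0 < n := by omega
  have hn3 : (3 : ℝ) ≤ n := by exact_mod_cast hn
  have hcq : 0 < c ^ q := Real.rpow_pos_of_pos hc _
  have hforce : ∀ x, 1 ≤ rho x → lap v x + c ^ q * rho x ^ (B / 2 - q * α) ≤ 0 := by
    intro x hx
    have h0 : 0 < rho x := by linarith
    have h1 := eq x (ne_of_rho_pos h0)
    rw [nrm_rpow h0] at h1
    have h2 : (c * rho x ^ (-α)) ^ q ≤ u x ^ q :=
      Real.rpow_le_rpow (by positivity) (hlow x hx) hq.le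
    have h3 : (c * rho x ^ (-α)) ^ q = c ^ q * rho x ^ (-α * q) := by
      rw [Real.mul_rpow hc.le (Real.rpow_nonneg h0.le _), ← Real.rpow_mul h0.le]
    rw [h3] at h2
    have h4 : rho x ^ (B / 2) * (c ^ q * rho x ^ (-α * q)) ≤ rho x ^ (B / 2) * u x ^ q :=
      mul_le_mul_of_nonneg_left h2 (Real.rpow_nonneg h0.le _)
    have h5 : rho x ^ (B / 2) * (c ^ q * rho x ^ (-α * q)) = c ^ q * rho x ^ (B / 2 - q * α) := by
      have : B / 2 - q * α = B / 2 + -α * q := by ring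
      rw [this, Real.rpow_add h0]
      ring
    rw [h5] at h4
    linarith
  by_cases he : q * α - (B / 2 + 1) ≤ 0
  · exfalso
    refine no_force hn cv sv pv hcq fun x hx => ?_
    have h1 := hforce x hx.le
    have h0 : 0 < rho x := by linarith
    have h2 : rho x ^ (-1 : ℝ) ≤ rho x ^ (B / 2 - q * α) :=
      Real.rpow_le_rpow_of_exponent_le hx.le (by linarith)
    rw [Real.rpow_neg_one] at h2
    have h3 := mul_le_mul_of_nonneg_left h2 hcq.le
    linarith
  push Not at he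
  set e := q * α - (B / 2 + 1) with hed
  have hSc : IsCompact {x : Fin n → ℝ | 1 ≤ rho x ∧ rho x ≤ 1} := isCompact_shell 1 1
  have hSne : ({x : Fin n → ℝ | 1 ≤ rho x ∧ rho x ≤ 1}).Nonempty := by
    refine ⟨Function.update 0 ⟨0, hn0⟩ 1, ?_⟩
    have : rho (Function.update (0 : Fin n → ℝ) ⟨0, hn0⟩ 1) = 1 := by
      rw [rho_update]
      simp [rho]
    simp [this]
  obtain ⟨xs, -, hmin⟩ := hSc.exists_isMinOn hSne cv.continuousOn
  have hm0 : 0 < v xs := pv xs
  have hm1 : ∀ x, rho x = 1 → v xs ≤ v x := fun x h => hmin ⟨h.ge, h.le⟩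
  have hnegl : ∀ x, 1 ≤ rho x → lap v x ≤ 0 := by
    intro x hx
    have h1 := hforce x hx
    have h0 : 0 < rho x := by linarith
    have : 0 < c ^ q * rho x ^ (B / 2 - q * α) := mul_pos hcq (Real.rpow_pos_of_pos h0 _)
    linarith
  by_cases hcase : ((n : ℝ) - 2) / 2 ≤ e
  · refine ⟨((n : ℝ) - 2) / 2, v xs, by linarith, le_rfl, hcase, hm0, ?_⟩
    refine lower_bd hn0 cv sv pv hm0 (by linarith) hm1 fun x hx => ?_
    have e1 : (n : ℝ) - 2 - 2 * (((n : ℝ) - 2) / 2) = 0 := by ring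
    rw [e1]
    simp only [mul_zero, zero_mul, add_zero]
    exact hnegl x hx.le
  · push Not at hcase
    set K := 2 * e * ((n : ℝ) - 2 - 2 * e) with hK
    have hK0 : 0 < K := by
      rw [hK]
      have : 0 < (n : ℝ) - 2 - 2 * e := by linarith
      positivity
    set c' := min (v xs) (c ^ q / K) with hc'
    have hc'0 : 0 < c' := lt_min hm0 (div_pos hcq hK0)
    have hc'1 : c' ≤ v xs := min_le_left _ _
    have hc'2 : c' ≤ c ^ q / K := min_le_right _ _
    refine ⟨e, c', he, hcase.le, le_rfl, hc'0, ?_⟩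
    refine lower_bd hn0 cv sv pv hc'0 he (fun x hx => hc'1.trans (hm1 x hx)) fun x hx => ?_
    have h1 := hforce x hx.le
    have h0 : 0 < rho x := by linarith
    have e2 : B / 2 - q * α = -e - 1 := by rw [hed]; ring
    rw [e2] at h1
    have hp : 0 < rho x ^ (-e - 1) := Real.rpow_pos_of_pos h0 _
    have h3 : c' * K ≤ c ^ q := (le_div_iff₀ hK0).1 hc'2
    have h4 : 2 * c' * e * ((n : ℝ) - 2 - 2 * e) = c' * K := by rw [hK]; ring
    rw [h4]
    nlinarith

/-- The bootstrap: Mitidieri type region, `u`-form. -/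
theorem no_sol_mit_aux (hn : 3 ≤ n) {A B p q : ℝ} (hp : 0 < p) (hq : 0 < q)
    (hC : 0 < p * (B / 2 + 1) + (A / 2 + 1))
    (hreg : ((n : ℝ) - 2) / 2 * (p * q - 1) < p * (B / 2 + 1) + (A / 2 + 1))
    {u v : (Fin n → ℝ) → ℝ} (s : IsSol A B p q u v) : False := by
  have hn0 : 0 < n := by omega
  have hn3 : (3 : ℝ) ≤ n := by exact_mod_cast hn
  set α0 : ℝ := ((n : ℝ) - 2) / 2 with hα0
  have hα00 : 0 < α0 := by rw [hα0]; linarith
  set C := p * (B / 2 + 1) + (A / 2 + 1) with hCd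
  set d := min C (C - (p * q - 1) * α0) with hd
  have hd0 : 0 < d := lt_min hC (by nlinarith)
  have hg : ∀ α, 0 < α → α ≤ α0 → d ≤ C - (p * q - 1) * α := by
    intro α h1 h2
    by_cases hpq : p * q ≤ 1
    · have : (p * q - 1) * α ≤ 0 := mul_nonpos_of_nonpos_of_nonneg (by linarith) h1.le
      exact (min_le_left _ _).trans (by linarith)
    · push Not at hpq
      have : (p * q - 1) * α ≤ (p * q - 1) * α0 := mul_le_mul_of_nonneg_left h2 (by linarith)
      exact (min_le_right _ _).trans (by linarith)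
  have hP : ∀ k : ℕ, ∃ α c, 0 < α ∧ α ≤ α0 ∧ α ≤ α0 - k * d ∧ 0 < c ∧
      ∀ x, 1 ≤ rho x → c * rho x ^ (-α) ≤ u x := by
    intro k
    induction k with
    | zero =>
      have hSc : IsCompact {x : Fin n → ℝ | 1 ≤ rho x ∧ rho x ≤ 1} := isCompact_shell 1 1
      have hSne : ({x : Fin n → ℝ | 1 ≤ rho x ∧ rho x ≤ 1}).Nonempty := by
        refine ⟨Function.update 0 ⟨0, hn0⟩ 1, ?_⟩
        have : rho (Function.update (0 : Fin n → ℝ) ⟨0, hn0⟩ 1) = 1 := by
          rw [rho_update]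
          simp [rho]
        simp [this]
      obtain ⟨xs, -, hmin⟩ := hSc.exists_isMinOn hSne s.contU.continuousOn
      refine ⟨α0, u xs, hα00, le_rfl, by simp, s.posU xs, ?_⟩
      refine lower_bd hn0 s.contU s.smU s.posU (s.posU xs) hα00
        (fun x h => hmin ⟨h.ge, h.le⟩) fun x hx => ?_
      have e1 : (n : ℝ) - 2 - 2 * α0 = 0 := by rw [hα0]; ring
      rw [e1]
      simp only [mul_zero, zero_mul, add_zero]
      have h0 : 0 < rho x := by linarith
      have h1 := s.eqU x (ne_of_rho_pos h0)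
      have h2 : 0 < nrm x ^ A := Real.rpow_pos_of_pos (Real.sqrt_pos.2 h0) _
      have h3 : 0 < v x ^ p := Real.rpow_pos_of_pos (s.posV x) _
      have h4 := mul_pos h2 h3
      linarith
    | succ k ih =>
      obtain ⟨α, c, hα, hα1, hα2, hc, hlow⟩ := ih
      obtain ⟨τ, c', hτ, hτ1, hτ2, hc', hlow'⟩ :=
        boot_step hn hq s.posU s.contV s.smV s.posV s.eqV hc hlow
      obtain ⟨τ', c'', hτ', hτ1', hτ2', hc'', hlow''⟩ :=
        boot_step hn hp s.posV s.contU s.smU s.posU s.eqU hc' hlow'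
      refine ⟨τ', c'', hτ', hτ1', ?_, hc'', hlow''⟩
      have h1 := hg α hα hα1
      have h2 : p * τ ≤ p * (q * α - (B / 2 + 1)) := mul_le_mul_of_nonneg_left hτ2 hp.le
      push_cast
      have h3 : τ' ≤ α - d := by
        rw [hCd] at h1
        nlinarith
      linarith
  obtain ⟨k, hk⟩ := exists_nat_gt (α0 / d)
  obtain ⟨α, c, hα, hα1, hα2, hc, -⟩ := hP k
  have : α0 < k * d := (div_lt_iff₀ hd0).1 hk
  linarith

/-- Mitidieri type region. -/
theorem no_sol_mit (hn : 3 ≤ n) {A B p q : ℝ} (hp : 0 < p) (hq : 0 < q)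
    (hreg : (0 < p * (B / 2 + 1) + (A / 2 + 1) ∧
        ((n : ℝ) - 2) / 2 * (p * q - 1) < p * (B / 2 + 1) + (A / 2 + 1)) ∨
      (0 < q * (A / 2 + 1) + (B / 2 + 1) ∧
        ((n : ℝ) - 2) / 2 * (p * q - 1) < q * (A / 2 + 1) + (B / 2 + 1)))
    {u v : (Fin n → ℝ) → ℝ} (s : IsSol A B p q u v) : False := by
  rcases hreg with ⟨h1, h2⟩ | ⟨h1, h2⟩
  · exact no_sol_mit_aux hn hp hq h1 h2 s
  · have e : p * q = q * p := mul_comm _ _
    rw [e] at h2
    exact no_sol_mit_aux hn hq hp h1 h2 s.swap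

end Vale.Agent.Lib.P100
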